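import Vale.Agent.P088.R2.H464.EP.CmpS
import Mathlib.LinearAlgebra.Matrix.Gershgorin
import Mathlib.LinearAlgebra.Matrix.NonsingularInverse

/-!
# P088: the inverse of a tensor near `1`
-/

open Set Filter
open scoped ContDiff Topology Matrix

noncomputable section

namespace Vale.Agent.P088.R2.H72.W

open Vale.Agent.P088.LR Vale.Agent.P088.HY Vale.Agent.P088.R2.H961.GW Vale.Agent.P088.R2.H644.Ch
open Vale.Agent.P088.R2.H464.Cu

variable {n : ℕ}

section alg

variable {S G P Q : Matrix (Fin n) (Fin n) ℝ} {ε a b : ℝ}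

/-- A matrix near `1` is invertible. -/
theorem det_ne (hS : ∀ i j, |S i j - (1 : Matrix (Fin n) (Fin n) ℝ) i j| ≤ ε)
    (hε : n * ε ≤ 1 / 4) : S.det ≠ 0 := by
  refine det_ne_zero_of_sum_row_lt_diag fun k => ?_
  have hn : (1 : ℝ) ≤ n := by
    have : 0 < n := k.pos
    exact_mod_cast this
  have he : 0 ≤ ε := (abs_nonneg _).trans (hS k k)
  have h1 : ∑ j ∈ Finset.univ.erase k, ‖S k j‖ ≤ ∑ j ∈ Finset.univ.erase k, ε := by
    refine Finset.sum_le_sum fun j hj => ?_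
    have := hS k j
    rw [Matrix.one_apply_ne (Finset.ne_of_mem_erase hj).symm, sub_zero] at this
    rwa [Real.norm_eq_abs]
  have h2 : ∑ j ∈ Finset.univ.erase k, ε ≤ n * ε := by
    rw [Finset.sum_const, nsmul_eq_mul]
    have : ((Finset.univ.erase k).card : ℝ) ≤ n := by
      have := (Finset.univ.erase k).card_le_univ
      rw [Fintype.card_fin] at this
      exact_mod_cast this
    gcongr
  have h3 := hS k k
  rw [Matrix.one_apply_eq] at h3
  have h4 := (abs_le.1 h3).1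
  rw [Real.norm_eq_abs (S k k)]
  have h5 := le_abs_self (S k k)
  have h6 : ε ≤ n * ε := by nlinarith
  linarith

theorem inv_two (hS : ∀ i j, |S i j - (1 : Matrix (Fin n) (Fin n) ℝ) i j| ≤ ε)
    (hε : n * ε ≤ 1 / 4) (hG : G * S = 1) (i j : Fin n) : |G i j| ≤ 2 := by
  have e : ∀ j, G i j = (1 : Matrix (Fin n) (Fin n) ℝ) i j -
      ∑ k, G i k * (S k j - (1 : Matrix (Fin n) (Fin n) ℝ) k j) := by
    intro j
    have h1 : (G * S) i j = (1 : Matrix (Fin n) (Fin n) ℝ) i j := by rw [hG]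
    have h2 : (G * (1 : Matrix (Fin n) (Fin n) ℝ)) i j = G i j := by rw [mul_one]
    rw [Matrix.mul_apply] at h1 h2
    simp only [mul_sub, Finset.sum_sub_distrib]
    rw [h1, h2]
    ring
  obtain ⟨m, -, hm⟩ := Finset.exists_max_image Finset.univ (fun k => |G i k|) ⟨i, Finset.mem_univ i⟩
  have h3 : |G i m| ≤ 1 + n * ε * |G i m| := by
    conv_lhs => rw [e m]
    refine (abs_sub _ _).trans ?_
    have h4 : |(1 : Matrix (Fin n) (Fin n) ℝ) i m| ≤ 1 := by
      rw [Matrix.one_apply]; split_ifs <;> simp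
    have h5 : |∑ k, G i k * (S k m - (1 : Matrix (Fin n) (Fin n) ℝ) k m)| ≤
        n * (|G i m| * ε) := by
      refine sum_le1 fun k => ?_
      rw [abs_mul]
      have := hm k (Finset.mem_univ k)
      have := hS k m
      gcongr
    have e2 : (n : ℝ) * (|G i m| * ε) = n * ε * |G i m| := by ring
    rw [e2] at h5
    linarith
  have h6 := abs_nonneg (G i m)
  have h7 : (n : ℝ) * ε * |G i m| ≤ 1 / 4 * |G i m| := by gcongr
  have h8 := hm j (Finset.mem_univ j)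
  linarith

theorem inv_one (hS : ∀ i j, |S i j - (1 : Matrix (Fin n) (Fin n) ℝ) i j| ≤ ε)
    (hε : n * ε ≤ 1 / 4) (hG : G * S = 1) (i j : Fin n) :
    |G i j - (1 : Matrix (Fin n) (Fin n) ℝ) i j| ≤ n * (2 * ε) := by
  have e : G i j - (1 : Matrix (Fin n) (Fin n) ℝ) i j =
      -∑ k, G i k * (S k j - (1 : Matrix (Fin n) (Fin n) ℝ) k j) := by
    have h1 : (G * S) i j = (1 : Matrix (Fin n) (Fin n) ℝ) i j := by rw [hG]
    have h2 : (G * (1 : Matrix (Fin n) (Fin n) ℝ)) i j = G i j := by rw [mul_one]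
    rw [Matrix.mul_apply] at h1 h2
    simp only [mul_sub, Finset.sum_sub_distrib]
    rw [h1, h2]
    ring
  rw [e, abs_neg]
  refine sum_le1 fun k => ?_
  rw [abs_mul]
  have := inv_two hS hε hG i k
  have := hS k j
  gcongr

theorem mul_ent (ha : ∀ i j, |P i j| ≤ a) (hb : ∀ i j, |Q i j| ≤ b) (i j : Fin n) :
    |(P * Q) i j| ≤ n * (a * b) := by
  rw [Matrix.mul_apply]
  refine sum_le1 fun k => ?_
  rw [abs_mul]
  have h1 := ha i k
  have h2 := hb k j
  have := (abs_nonneg _).trans h1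
  gcongr

end alg

/-- The derivative of a matrix field. -/
def pdm (k : Fin n) (s : MF n) (x : V n) : Matrix (Fin n) (Fin n) ℝ :=
  Matrix.of fun i j => pd k (fun y => s y i j) x

theorem pdm_mul {A B : MF n} {x : V n} (hA : ∀ i j, DifferentiableAt ℝ (fun y => A y i j) x)
    (hB : ∀ i j, DifferentiableAt ℝ (fun y => B y i j) x) (k : Fin n) :
    pdm k (fun y => A y * B y) x = pdm k A x * B x + A x * pdm k B x := by
  ext i j
  simp only [pdm, Matrix.of_apply, Matrix.add_apply, Matrix.mul_apply]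
  unfold pd
  rw [fderiv_fun_sum fun l _ => (hA i l).fun_mul (hB l j)]
  simp only [_root_.sum_apply]
  rw [← Finset.sum_add_distrib]
  refine Finset.sum_congr rfl fun l _ => ?_
  rw [fderiv_fun_mul (hA i l) (hB l j)]
  simp only [_root_.add_apply, _root_.smul_apply, smul_eq_mul]
  ring

theorem pdm_congr {A B : MF n} {O : Set (V n)} (hO : IsOpen O) {x : V n} (hx : x ∈ O)
    (h : ∀ y ∈ O, A y = B y) (k : Fin n) : pdm k A x = pdm k B x := by
  ext i j
  simp only [pdm, Matrix.of_apply]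
  unfold pd
  have : (fun y => A y i j) =ᶠ[𝓝 x] fun y => B y i j := by
    filter_upwards [hO.mem_nhds hx] with y hy
    rw [h y hy]
  rw [this.fderiv_eq]

theorem pdm_neg {A : MF n} {x : V n} (k : Fin n) :
    pdm k (fun y => -A y) x = -pdm k A x := by
  ext i j
  simp only [pdm, Matrix.of_apply, Matrix.neg_apply]
  unfold pd
  rw [fderiv_fun_neg]
  simp

theorem pdm_one {x : V n} (k : Fin n) :
    pdm k (fun _ => (1 : Matrix (Fin n) (Fin n) ℝ)) x = 0 := by
  ext i j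
  simp [pdm, pd]

theorem sm_inv {O : Set (V n)} {s : MF n} (hs : ∀ i j, ContDiffOn ℝ ∞ (fun x => s x i j) O)
    (hd : ∀ x ∈ O, (s x).det ≠ 0) (i j : Fin n) :
    ContDiffOn ℝ ∞ (fun x => (s x)⁻¹ i j) O := by
  have hdet : ContDiffOn ℝ ∞ (fun x => (s x).det) O := by
    simp only [Matrix.det_apply']
    exact ContDiffOn.sum fun σ _ => contDiffOn_const.mul (contDiffOn_prod fun i _ => hs _ _)
  have hadj : ∀ a b, ContDiffOn ℝ ∞ (fun x => (s x).adjugate a b) O := by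
    intro a b
    simp only [Matrix.adjugate_apply, Matrix.det_apply']
    refine ContDiffOn.sum fun σ _ => contDiffOn_const.mul (contDiffOn_prod fun i _ => ?_)
    by_cases h : σ i = b
    · simp only [h, Matrix.updateRow_self]
      exact contDiffOn_const
    · simp only [Matrix.updateRow_ne h]
      exact hs _ _
  simp only [Matrix.inv_def, Matrix.smul_apply, smul_eq_mul, Ring.inverse_eq_inv']
  exact (hdet.inv hd).mul (hadj i j)

section main

variable {O : Set (V n)} {ε δ₁ δ₂ : ℝ} {s : MF n} {x : V n}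

/-- The inverse metric. -/
def iv (s : MF n) : MF n := fun x => (s x)⁻¹

theorem iv_mul (h : Nr O ε δ₁ δ₂ s) (hε : n * ε ≤ 1 / 4) (hx : x ∈ O) : iv s x * s x = 1 :=
  Matrix.nonsing_inv_mul _ (isUnit_iff_ne_zero.2 (det_ne (fun i j => h.b0 x hx i j) hε))

theorem mul_iv (h : Nr O ε δ₁ δ₂ s) (hε : n * ε ≤ 1 / 4) (hx : x ∈ O) : s x * iv s x = 1 :=
  Matrix.mul_nonsing_inv _ (isUnit_iff_ne_zero.2 (det_ne (fun i j => h.b0 x hx i j) hε))

theorem iv_sm (h : Nr O ε δ₁ δ₂ s) (hε : n * ε ≤ 1 / 4) (i j : Fin n) :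
    ContDiffOn ℝ ∞ (fun x => iv s x i j) O :=
  sm_inv h.sm (fun _ hx => det_ne (fun i j => h.b0 _ hx i j) hε) i j

/-- The derivative of the inverse. -/
theorem pdm_iv (hO : IsOpen O) (h : Nr O ε δ₁ δ₂ s) (hε : n * ε ≤ 1 / 4) (hx : x ∈ O)
    (k : Fin n) : pdm k (iv s) x = -(iv s x * pdm k s x * iv s x) := by
  have hA : ∀ i j, DifferentiableAt ℝ (fun y => iv s y i j) x := fun i j =>
    df_of hO (iv_sm h hε i j) hx
  have hB : ∀ i j, DifferentiableAt ℝ (fun y => s y i j) x := fun i j => df_of hO (h.sm i j) hx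
  have e1 := pdm_mul hA hB k
  have e2 : pdm k (fun y => iv s y * s y) x = 0 := by
    rw [pdm_congr hO hx (B := fun _ => 1) (fun y hy => iv_mul h hε hy) k]
    exact pdm_one k
  rw [e2] at e1
  have e3 : pdm k (iv s) x * s x = -(iv s x * pdm k s x) := (neg_eq_of_add_eq_zero_left e1.symm).symm
  calc pdm k (iv s) x = pdm k (iv s) x * (s x * iv s x) := by rw [mul_iv h hε hx, mul_one]
    _ = (pdm k (iv s) x * s x) * iv s x := by rw [mul_assoc]
    _ = _ := by rw [e3, neg_mul]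

theorem pdm_sm {A : MF n} (hO : IsOpen O) (hA : ∀ i j, ContDiffOn ℝ ∞ (fun x => A x i j) O)
    (k i j : Fin n) : ContDiffOn ℝ ∞ (fun x => pdm k A x i j) O := sm_pd hO (hA i j) k

theorem mul_sm {A B : MF n} (hA : ∀ i j, ContDiffOn ℝ ∞ (fun x => A x i j) O)
    (hB : ∀ i j, ContDiffOn ℝ ∞ (fun x => B x i j) O) (i j : Fin n) :
    ContDiffOn ℝ ∞ (fun x => (A x * B x) i j) O := by
  simp only [Matrix.mul_apply]
  exact ContDiffOn.sum fun l _ => (hA i l).mul (hB l j)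

/-- The second derivative of the inverse. -/
theorem pdm2_iv (hO : IsOpen O) (h : Nr O ε δ₁ δ₂ s) (hε : n * ε ≤ 1 / 4) (hx : x ∈ O)
    (l k : Fin n) : pdm l (pdm k (iv s)) x =
      -((pdm l (iv s) x * pdm k s x + iv s x * pdm l (pdm k s) x) * iv s x +
        iv s x * pdm k s x * pdm l (iv s) x) := by
  have hg : ∀ i j, DifferentiableAt ℝ (fun y => iv s y i j) x := fun i j =>
    df_of hO (iv_sm h hε i j) hx
  have hp : ∀ i j, DifferentiableAt ℝ (fun y => pdm k s y i j) x := fun i j =>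
    df_of hO (pdm_sm hO h.sm k i j) hx
  have hgp : ∀ i j, DifferentiableAt ℝ (fun y => (iv s y * pdm k s y) i j) x := fun i j =>
    df_of hO (mul_sm (iv_sm h hε) (pdm_sm hO h.sm k) i j) hx
  rw [pdm_congr hO hx (B := fun y => -(iv s y * pdm k s y * iv s y))
    (fun y hy => pdm_iv hO h hε hy k) l, pdm_neg (A := fun y => iv s y * pdm k s y * iv s y) l,
    pdm_mul (A := fun y => iv s y * pdm k s y) hgp hg l, pdm_mul hg hp l]

end main

/-- **The inverse metric.** -/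
theorem rowInv (n : ℕ) : RowInv n := by
  refine ⟨16 * (n + 1) ^ 4, 1 / (4 * (n + 1)), by positivity, ?_, ?_⟩
  · have : (1 : ℝ) ≤ (n + 1) ^ 4 := one_le_pow₀ (by have : (0 : ℝ) ≤ n := Nat.cast_nonneg n
                                                    linarith)
    linarith
  intro O ε δ₁ δ₂ s hO h hε hε0 hδ1 hδ2
  have hn : (0 : ℝ) ≤ n := Nat.cast_nonneg n
  have hnε : (n : ℝ) * ε ≤ 1 / 4 := by
    have h1 : (n : ℝ) * ε ≤ n * (1 / (4 * (n + 1))) := by gcongr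
    refine h1.trans ?_
    rw [mul_one_div, div_le_div_iff₀ (by positivity) (by norm_num)]
    linarith
  have hone : (1 : ℝ) ≤ n + 1 := by linarith
  have hp1 : (n : ℝ) ≤ (n + 1) ^ 4 := by
    calc (n : ℝ) ≤ (n + 1) ^ 1 := by linarith
      _ ≤ (n + 1) ^ 4 := pow_le_pow_right₀ hone (by norm_num)
  have hp2 : (n : ℝ) ^ 2 ≤ (n + 1) ^ 4 := by
    have h1 : (n : ℝ) ^ 2 ≤ ((n : ℝ) + 1) ^ 2 := pow_le_pow_left₀ hn (by linarith) 2
    exact h1.trans (pow_le_pow_right₀ hone (by norm_num))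
  have hp4 : (n : ℝ) ^ 4 ≤ (n + 1) ^ 4 := pow_le_pow_left₀ hn (by linarith) 4
  have hG : ∀ x ∈ O, ∀ i j, |iv s x i j| ≤ 2 := fun x hx =>
    inv_two (fun i j => h.b0 x hx i j) hnε (iv_mul h hnε hx)
  have hQ : ∀ x ∈ O, ∀ k i j, |pdm k s x i j| ≤ δ₁ := fun x hx k i j => h.b1 x hx k i j
  have hQ2 : ∀ x ∈ O, ∀ l k i j, |pdm l (pdm k s) x i j| ≤ δ₂ := fun x hx l k i j =>
    h.b2 x hx l k i j
  have hP : ∀ x ∈ O, ∀ k i j, |pdm k (iv s) x i j| ≤ n * (n * (2 * δ₁) * 2) := by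
    intro x hx k i j
    rw [pdm_iv hO h hnε hx k, Matrix.neg_apply, abs_neg]
    exact mul_ent (mul_ent (hG x hx) (hQ x hx k)) (hG x hx) i j
  refine ⟨⟨fun i j => iv_sm h hnε i j, ?_, ?_, ?_, ?_⟩, fun x hx =>
    ⟨iv_mul h hnε hx, mul_iv h hnε hx⟩⟩
  · intro x i j
    have hT : (s x)ᵀ = s x := by
      ext a b
      exact h.sy x b a
    have : ((s x)⁻¹)ᵀ = (s x)⁻¹ := by rw [Matrix.transpose_nonsing_inv, hT]
    calc (s x)⁻¹ i j = ((s x)⁻¹)ᵀ i j := by rw [this]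
      _ = (s x)⁻¹ j i := rfl
  · intro x hx i j
    refine (inv_one (fun i j => h.b0 x hx i j) hnε (iv_mul h hnε hx) i j).trans ?_
    have : (n : ℝ) * (2 * ε) = 2 * n * ε := by ring
    rw [this]
    have h2 : 2 * (n : ℝ) ≤ 16 * (n + 1) ^ 4 := by linarith
    gcongr
  · intro x hx k i j
    refine (hP x hx k i j).trans ?_
    have : (n : ℝ) * (n * (2 * δ₁) * 2) = 4 * n ^ 2 * δ₁ := by ring
    rw [this]
    have h2 : 4 * (n : ℝ) ^ 2 ≤ 16 * (n + 1) ^ 4 := by linarith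
    gcongr
  · intro x hx l k i j
    have e : pd l (pd k fun y => (s y)⁻¹ i j) x = pdm l (pdm k (iv s)) x i j := rfl
    rw [e, pdm2_iv hO h hnε hx l k, Matrix.neg_apply, abs_neg, add_mul, Matrix.add_apply,
      Matrix.add_apply]
    have b1 := mul_ent (mul_ent (hP x hx l) (hQ x hx k)) (hG x hx) i j
    have b2 := mul_ent (mul_ent (hG x hx) (hQ2 x hx l k)) (hG x hx) i j
    have b3 := mul_ent (mul_ent (hG x hx) (hQ x hx k)) (hP x hx l) i j
    have b4 := abs_add_le ((pdm l (iv s) x * pdm k s x * iv s x) i j +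
      (iv s x * pdm l (pdm k s) x * iv s x) i j) ((iv s x * pdm k s x * pdm l (iv s) x) i j)
    have b5 := abs_add_le ((pdm l (iv s) x * pdm k s x * iv s x) i j)
      ((iv s x * pdm l (pdm k s) x * iv s x) i j)
    have e1 : (n : ℝ) * (n * (n * (n * (2 * δ₁) * 2) * δ₁) * 2) = 8 * n ^ 4 * δ₁ ^ 2 := by ring
    have e2 : (n : ℝ) * (n * (2 * δ₂) * 2) = 4 * n ^ 2 * δ₂ := by ring
    have e3 : (n : ℝ) * (n * (2 * δ₁) * (n * (n * (2 * δ₁) * 2))) = 8 * n ^ 4 * δ₁ ^ 2 := by ring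
    rw [e1] at b1
    rw [e2] at b2
    rw [e3] at b3
    have c1 : 16 * (n : ℝ) ^ 4 * δ₁ ^ 2 ≤ 16 * (n + 1) ^ 4 * δ₁ ^ 2 := by gcongr
    have c2 : 4 * (n : ℝ) ^ 2 * δ₂ ≤ 16 * (n + 1) ^ 4 * δ₂ := by
      have h2 : 4 * (n : ℝ) ^ 2 ≤ 16 * (n + 1) ^ 4 := by linarith
      gcongr
    have e4 : 16 * ((n : ℝ) + 1) ^ 4 * (δ₂ + δ₁ ^ 2) =
      16 * (n + 1) ^ 4 * δ₂ + 16 * (n + 1) ^ 4 * δ₁ ^ 2 := by ring
    rw [e4]
    linarith

end Vale.Agent.P088.R2.H72.W
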