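import Vale.Agent.P088.R2.H464.EP.CmpS

/-!
# P088: the Hessian form and the pairing in curved slots against the flat ones
-/

open Set Filter
open scoped ContDiff Topology Matrix

noncomputable section

namespace Vale.Agent.P088.R2.H72.W

open Vale.Agent.P088.LR Vale.Agent.P088.HY Vale.Agent.P088.R2.H961.GW Vale.Agent.P088.R2.H644.Ch
open Vale.Agent.P088.R2.H464.Cu

variable {n : ℕ}

section aux

variable {O : Set (V n)} {ε δ₁ δ₂ : ℝ} {s s₁ s₂ : MF n} {U : Set (VV n)} {W : VV n → ℝ}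
  {z : VV n} {A B : V n} {x : V n}

theorem nj_nonneg (j : ℕ) (W : VV n → ℝ) (z : VV n) : 0 ≤ Nj j W z := norm_nonneg _

theorem fd_nj1 (W : VV n → ℝ) (z v : VV n) : |fderiv ℝ W z v| ≤ Nj 1 W z * ‖v‖ := by
  unfold Nj
  rw [norm_iteratedFDeriv_one]
  exact (fderiv ℝ W z).le_opNorm v

theorem fd_nj2 (W : VV n → ℝ) (z v w : VV n) :
    |fderiv ℝ (fderiv ℝ W) z v w| ≤ Nj 2 W z * (‖v‖ * ‖w‖) := by
  have e : ‖fderiv ℝ (fderiv ℝ W) z‖ = Nj 2 W z := by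
    unfold Nj
    rw [← norm_iteratedFDeriv_fderiv, norm_iteratedFDeriv_one]
  have h1 := (fderiv ℝ (fderiv ℝ W) z v).le_opNorm w
  have h2 := (fderiv ℝ (fderiv ℝ W) z).le_opNorm v
  rw [e] at h2
  rw [Real.norm_eq_abs] at h1
  calc _ ≤ ‖fderiv ℝ (fderiv ℝ W) z v‖ * ‖w‖ := h1
    _ ≤ Nj 2 W z * ‖v‖ * ‖w‖ := by gcongr
    _ = _ := by ring

theorem nsx (i : Fin n) : ‖((Pi.single i 1, 0) : VV n)‖ = 1 := by
  simp [Prod.norm_def, Pi.norm_single]

theorem nsy (i : Fin n) : ‖((0, Pi.single i 1) : VV n)‖ = 1 := by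
  simp [Prod.norm_def, Pi.norm_single]

theorem dx_nj (W : VV n → ℝ) (z : VV n) (i : Fin n) : |dx i W z| ≤ Nj 1 W z := by
  have := fd_nj1 W z (Pi.single i 1, 0)
  rwa [nsx, mul_one] at this

theorem dy_nj (W : VV n → ℝ) (z : VV n) (i : Fin n) : |dy i W z| ≤ Nj 1 W z := by
  have := fd_nj1 W z (0, Pi.single i 1)
  rwa [nsy, mul_one] at this

/-- `s A - A` is small. -/
theorem up_sub_le (h : Nr O ε δ₁ δ₂ s) (hx : x ∈ O) (hε : 0 ≤ ε) (A : V n) :
    ‖up (s x) A - A‖ ≤ n * ε * ‖A‖ := by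
  refine (pi_norm_le_iff_of_nonneg (by positivity)).2 fun j => ?_
  have e : (up (s x) A - A) j =
      ∑ i, (s x i j - (1 : Matrix (Fin n) (Fin n) ℝ) i j) * A i := by
    simp only [Pi.sub_apply, up, sub_mul, Finset.sum_sub_distrib, Matrix.one_apply]
    simp
  rw [e, Real.norm_eq_abs]
  refine (sum_le1 (c := ε * ‖A‖) fun i => ?_).trans (le_of_eq (by ring))
  rw [abs_mul]
  have h1 := h.b0 x hx i j
  have h2 := cmp_le A i
  gcongr

theorem nv_le (h : Nr O ε δ₁ δ₂ s) (hx : x ∈ O) (hε : ε ≤ 1) (hδ : 0 ≤ δ₁) (A : V n)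
    (k : Fin n) : |nv s x A k| ≤ 3 * n ^ 3 * (δ₁ * ‖A‖ ^ 2) := by
  unfold nv
  refine (sum_le2 (c := (n * (3 * δ₁)) * ‖A‖ * ‖A‖) fun i l => ?_).trans (le_of_eq (by ring))
  rw [abs_mul, abs_mul]
  have h1 := cmp_le A i
  have h2 := cmp_le A l
  have h3 : |∑ j, (s x i j * pd j (fun y => s y k l) x -
      1 / 2 * (s x k j * pd j (fun y => s y i l) x))| ≤ n * (3 * δ₁) := by
    refine sum_le1 fun j => ?_
    have a1 := h.le2 hε hx i j
    have a2 := h.le2 hε hx k j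
    have a3 := h.b1 x hx j k l
    have a4 := h.b1 x hx j i l
    have b1 : |s x i j * pd j (fun y => s y k l) x| ≤ 2 * δ₁ := by
      rw [abs_mul]; gcongr
    have b2 : |s x k j * pd j (fun y => s y i l) x| ≤ 2 * δ₁ := by
      rw [abs_mul]; gcongr
    refine (abs_sub _ _).trans ?_
    rw [abs_mul (1 / 2 : ℝ)]
    rw [abs_of_pos (by norm_num : (0 : ℝ) < 1 / 2)]
    linarith
  have h4 := norm_nonneg A
  gcongr

/-- The flat form is the second derivative. -/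
theorem flat_eq (hU : IsOpen U) (hW : Sm U W) (hz : z ∈ U) (A B : V n) :
    (∑ i, ∑ j, dx i (dx j W) z * A i * A j +
        2 * ∑ i, ∑ j, dx i (dy j W) z * A i * B j + ∑ i, ∑ j, dy i (dy j W) z * B i * B j) =
      fderiv ℝ (fderiv ℝ W) z (A, B) (A, B) := by
  have e1 : ∀ i j, dx i (dx j W) z =
      fderiv ℝ (fderiv ℝ W) z (Pi.single i 1, 0) (Pi.single j 1, 0) :=
    fun i j => fd2 hU hW hz _ _
  have e2 : ∀ i j, dx i (dy j W) z =
      fderiv ℝ (fderiv ℝ W) z (Pi.single i 1, 0) (0, Pi.single j 1) :=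
    fun i j => fd2 hU hW hz _ _
  have e3 : ∀ i j, dy i (dy j W) z =
      fderiv ℝ (fderiv ℝ W) z (0, Pi.single i 1) (0, Pi.single j 1) :=
    fun i j => fd2 hU hW hz _ _
  rw [pr_add A B]
  simp only [map_add, _root_.add_apply]
  rw [fd2_symm hU hW hz (0, B) (A, 0)]
  have f1 : fderiv ℝ (fderiv ℝ W) z (A, 0) (A, 0) =
      ∑ i, ∑ j, dx i (dx j W) z * A i * A j := by
    rw [inl_sum A]
    simp only [map_sum, map_smul, _root_.sum_apply, _root_.smul_apply, smul_eq_mul,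
      Finset.mul_sum, e1]
    rw [Finset.sum_comm]
    refine Finset.sum_congr rfl fun i _ => Finset.sum_congr rfl fun j _ => ?_
    ring
  have f2 : fderiv ℝ (fderiv ℝ W) z (A, 0) (0, B) =
      ∑ i, ∑ j, dx i (dy j W) z * A i * B j := by
    rw [inl_sum A, inr_sum B]
    simp only [map_sum, map_smul, _root_.sum_apply, _root_.smul_apply, smul_eq_mul,
      Finset.mul_sum, e2]
    rw [Finset.sum_comm]
    refine Finset.sum_congr rfl fun i _ => Finset.sum_congr rfl fun j _ => ?_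
    ring
  have f3 : fderiv ℝ (fderiv ℝ W) z (0, B) (0, B) =
      ∑ i, ∑ j, dy i (dy j W) z * B i * B j := by
    rw [inr_sum B]
    simp only [map_sum, map_smul, _root_.sum_apply, _root_.smul_apply, smul_eq_mul,
      Finset.mul_sum, e3]
    rw [Finset.sum_comm]
    refine Finset.sum_congr rfl fun i _ => Finset.sum_congr rfl fun j _ => ?_
    ring
  rw [f1, f2, f3]
  ring

end aux

/-- **The Hessian form.** -/
theorem rowTHc (n : ℕ) : RowTHc n := by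
  refine ⟨(n : ℝ) * (n + 2) + 3 * n ^ 4, by positivity, ?_⟩
  intro O ε δ₁ δ₂ s₁ s₂ hO h1 h2 hε hε1 hδ U W hU hW z hz hz1 hz2 A B
  have hd1 : ∀ i j, DifferentiableAt ℝ (fun x => s₁ x i j) z.1 := fun i j =>
    df_of hO (h1.sm i j) hz1
  have hd2 : ∀ i j, DifferentiableAt ℝ (fun x => s₂ x i j) z.2 := fun i j =>
    df_of hO (h2.sm i j) hz2
  rw [TH_eq hU hW hz h1.sy h2.sy hd1 hd2, flat_eq hU hW hz, fd2 hU hW hz]
  set X : VV n := (up (s₁ z.1) A, up (s₂ z.2) B) with hX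
  set X₀ : VV n := (A, B) with hX₀
  set q : ℝ := ‖A‖ ^ 2 + ‖B‖ ^ 2 with hq
  have hA := norm_nonneg A
  have hB := norm_nonneg B
  have hn : (0 : ℝ) ≤ n := Nat.cast_nonneg n
  have hs : ‖X - X₀‖ ≤ n * ε * ‖X₀‖ := by
    rw [Prod.norm_def]
    refine max_le ?_ ?_
    · refine (up_sub_le h1 hz1 hε A).trans ?_
      have : ‖A‖ ≤ ‖X₀‖ := norm_fst_le X₀
      gcongr
    · refine (up_sub_le h2 hz2 hε B).trans ?_
      have : ‖B‖ ≤ ‖X₀‖ := norm_snd_le X₀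
      gcongr
  have hX0 : ‖X₀‖ ^ 2 ≤ q := by
    rw [Prod.norm_def, hq]
    rcases le_total ‖A‖ ‖B‖ with h | h
    · rw [max_eq_right h]; nlinarith
    · rw [max_eq_left h]; nlinarith
  have hXn : ‖X‖ ≤ (1 + n) * ‖X₀‖ := by
    have e : X = (X - X₀) + X₀ := by abel
    rw [e]
    refine (norm_add_le _ _).trans ?_
    have h3 : (n : ℝ) * ε * ‖X₀‖ ≤ n * 1 * ‖X₀‖ := by gcongr
    have := hs
    nlinarith
  have hN2 := nj_nonneg 2 W z
  have hN1 := nj_nonneg 1 W z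
  have m1 : |fderiv ℝ (fderiv ℝ W) z X X - fderiv ℝ (fderiv ℝ W) z X₀ X₀| ≤
      n * (n + 2) * (ε * Nj 2 W z * q) := by
    have e : fderiv ℝ (fderiv ℝ W) z X X - fderiv ℝ (fderiv ℝ W) z X₀ X₀ =
        fderiv ℝ (fderiv ℝ W) z (X - X₀) X + fderiv ℝ (fderiv ℝ W) z X₀ (X - X₀) := by
      simp only [map_sub, _root_.sub_apply]
      ring
    rw [e]
    refine (abs_add_le _ _).trans ?_
    have g1 := fd_nj2 W z (X - X₀) X
    have g2 := fd_nj2 W z X₀ (X - X₀)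
    have g3 : Nj 2 W z * (‖X - X₀‖ * ‖X‖) ≤
        Nj 2 W z * ((n * ε * ‖X₀‖) * ((1 + n) * ‖X₀‖)) := by gcongr
    have g4 : Nj 2 W z * (‖X₀‖ * ‖X - X₀‖) ≤ Nj 2 W z * (‖X₀‖ * (n * ε * ‖X₀‖)) := by gcongr
    have g5 : Nj 2 W z * ((n * ε * ‖X₀‖) * ((1 + n) * ‖X₀‖)) +
        Nj 2 W z * (‖X₀‖ * (n * ε * ‖X₀‖)) = n * (n + 2) * (ε * Nj 2 W z * ‖X₀‖ ^ 2) := by ring
    have g6 : (n : ℝ) * (n + 2) * (ε * Nj 2 W z * ‖X₀‖ ^ 2) ≤
        n * (n + 2) * (ε * Nj 2 W z * q) := by gcongr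
    linarith
  have m2 : |∑ k, dx k W z * nv s₁ z.1 A k| ≤ 3 * n ^ 4 * (δ₁ * Nj 1 W z * ‖A‖ ^ 2) := by
    refine (sum_le1 (c := Nj 1 W z * (3 * n ^ 3 * (δ₁ * ‖A‖ ^ 2))) fun k => ?_).trans
      (le_of_eq (by ring))
    rw [abs_mul]
    have a1 := dx_nj W z k
    have a2 := nv_le h1 hz1 hε1 hδ A k
    gcongr
  have m3 : |∑ k, dy k W z * nv s₂ z.2 B k| ≤ 3 * n ^ 4 * (δ₁ * Nj 1 W z * ‖B‖ ^ 2) := by
    refine (sum_le1 (c := Nj 1 W z * (3 * n ^ 3 * (δ₁ * ‖B‖ ^ 2))) fun k => ?_).trans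
      (le_of_eq (by ring))
    rw [abs_mul]
    have a1 := dy_nj W z k
    have a2 := nv_le h2 hz2 hε1 hδ B k
    gcongr
  have m4 : |fderiv ℝ (fderiv ℝ W) z X X + (∑ k, dx k W z * nv s₁ z.1 A k) +
      (∑ k, dy k W z * nv s₂ z.2 B k) - fderiv ℝ (fderiv ℝ W) z X₀ X₀| ≤
      n * (n + 2) * (ε * Nj 2 W z * q) + 3 * n ^ 4 * (δ₁ * Nj 1 W z * q) := by
    have e : fderiv ℝ (fderiv ℝ W) z X X + (∑ k, dx k W z * nv s₁ z.1 A k) +
      (∑ k, dy k W z * nv s₂ z.2 B k) - fderiv ℝ (fderiv ℝ W) z X₀ X₀ =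
      (fderiv ℝ (fderiv ℝ W) z X X - fderiv ℝ (fderiv ℝ W) z X₀ X₀) +
      (∑ k, dx k W z * nv s₁ z.1 A k) + (∑ k, dy k W z * nv s₂ z.2 B k) := by ring
    rw [e]
    refine (abs_add_le _ _).trans ?_
    have := abs_add_le (fderiv ℝ (fderiv ℝ W) z X X - fderiv ℝ (fderiv ℝ W) z X₀ X₀)
      (∑ k, dx k W z * nv s₁ z.1 A k)
    have e2 : 3 * (n : ℝ) ^ 4 * (δ₁ * Nj 1 W z * q) = 3 * n ^ 4 * (δ₁ * Nj 1 W z * ‖A‖ ^ 2) +
        3 * n ^ 4 * (δ₁ * Nj 1 W z * ‖B‖ ^ 2) := by rw [hq]; ring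
    linarith
  refine m4.trans ?_
  have p1 : 0 ≤ ε * Nj 2 W z * q := by positivity
  have p2 : 0 ≤ δ₁ * Nj 1 W z * q := by positivity
  have p3 : (0 : ℝ) ≤ n * (n + 2) := by positivity
  have p4 : (0 : ℝ) ≤ 3 * n ^ 4 := by positivity
  have e3 : ((n : ℝ) * (n + 2) + 3 * n ^ 4) * ((ε * Nj 2 W z + δ₁ * Nj 1 W z) * q) =
      n * (n + 2) * (ε * Nj 2 W z * q) + 3 * n ^ 4 * (δ₁ * Nj 1 W z * q) +
      (n * (n + 2) * (δ₁ * Nj 1 W z * q) + 3 * n ^ 4 * (ε * Nj 2 W z * q)) := by ring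
  rw [e3]
  have p5 := mul_nonneg p3 p2
  have p6 := mul_nonneg p4 p1
  linarith

/-- The abstract pairing. -/
theorem pair_le {ε : ℝ} (S : Matrix (Fin n) (Fin n) ℝ)
    (hS : ∀ i j, |S i j - (1 : Matrix (Fin n) (Fin n) ℝ) i j| ≤ ε) (p q : V n) :
    |∑ i, ∑ j, S i j * p i * q j - ∑ i, p i * q i| ≤
      ε * (∑ i, |p i|) * ∑ i, |q i| := by
  have e : ∑ i, ∑ j, S i j * p i * q j - ∑ i, p i * q i =
      ∑ i, ∑ j, (S i j - (1 : Matrix (Fin n) (Fin n) ℝ) i j) * (p i * q j) := by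
    rw [← Finset.sum_sub_distrib]
    refine Finset.sum_congr rfl fun i _ => ?_
    have : p i * q i = ∑ j, (1 : Matrix (Fin n) (Fin n) ℝ) i j * (p i * q j) := by
      simp [Matrix.one_apply]
    rw [this, ← Finset.sum_sub_distrib]
    exact Finset.sum_congr rfl fun j _ => by ring
  rw [e]
  refine (Finset.abs_sum_le_sum_abs _ _).trans ?_
  have : ε * (∑ i, |p i|) * ∑ i, |q i| = ∑ i, ∑ j, ε * (|p i| * |q j|) := by
    rw [mul_assoc, Finset.sum_mul_sum, Finset.mul_sum]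
    exact Finset.sum_congr rfl fun i _ => by rw [Finset.mul_sum]
  rw [this]
  refine Finset.sum_le_sum fun i _ => (Finset.abs_sum_le_sum_abs _ _).trans
    (Finset.sum_le_sum fun j _ => ?_)
  rw [abs_mul, abs_mul]
  have h1 := hS i j
  have := abs_nonneg (p i)
  have := abs_nonneg (q j)
  gcongr

/-- **The pairing.** -/
theorem rowX1 (n : ℕ) : RowX1 n := by
  refine ⟨1, zero_le_one, ?_⟩
  intro O ε δ₁ δ₂ s h hε hε1 W f a z
  refine ⟨fun hz => ?_, fun hz => ?_⟩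
  · have e : X1 (sx s) W f a z =
        ∑ i, ∑ j, s z.1 i j * dx i f z * (a z * dx j W z - dx j a z) := by
      unfold X1 Sl.Γ
      rw [Finset.mul_sum, ← Finset.sum_sub_distrib]
      refine Finset.sum_congr rfl fun i _ => ?_
      rw [Finset.mul_sum, ← Finset.sum_sub_distrib]
      refine Finset.sum_congr rfl fun j _ => ?_
      rw [Dx1, Dx1, Dx1]
      show a z * (s z.1 i j * dx i f z * dx j W z) - s z.1 i j * dx i f z * dx j a z = _
      ring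
    rw [e, one_mul]
    exact pair_le (s z.1) (fun i j => h.b0 z.1 hz i j) (fun i => dx i f z)
      (fun j => a z * dx j W z - dx j a z)
  · have e : X1 (sy s) W f a z =
        ∑ i, ∑ j, s z.2 i j * dy i f z * (a z * dy j W z - dy j a z) := by
      unfold X1 Sl.Γ
      rw [Finset.mul_sum, ← Finset.sum_sub_distrib]
      refine Finset.sum_congr rfl fun i _ => ?_
      rw [Finset.mul_sum, ← Finset.sum_sub_distrib]
      refine Finset.sum_congr rfl fun j _ => ?_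
      rw [Dy1, Dy1, Dy1]
      show a z * (s z.2 i j * dy i f z * dy j W z) - s z.2 i j * dy i f z * dy j a z = _
      ring
    rw [e, one_mul]
    exact pair_le (s z.2) (fun i j => h.b0 z.2 hz i j) (fun i => dy i f z)
      (fun j => a z * dy j W z - dy j a z)

end Vale.Agent.P088.R2.H72.W
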